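import Vale.Agent.Lib.P252.Separable

/-!
P252 (affine Bernstein problem), entire-graph form, for additively separable functions,
in every dimension and for every exponent `a ≠ 0` (the classical one is `a = -(n+1)/(n+2)`).
-/

open scoped ContDiff
open Vale.Agent.Lib.P252

theorem Vale.Agent.Results.P252.SeparableEntire.result
    (n : ℕ) (a : ℝ) (ha : a ≠ 0) (u : (Fin n → ℝ) → ℝ) (hu : ContDiff ℝ ∞ u)
    (hpos : ∀ x, (hessian u x).PosDef) (hAM : SolvesAM a u)
    (hsep : ∃ f : Fin n → ℝ → ℝ, ∀ x, u x = ∑ i, f i (x i)) :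
    ∃ (A : Matrix (Fin n) (Fin n) ℝ) (b : Fin n → ℝ) (c : ℝ), A.PosDef ∧
      ∀ x, u x = (1 / 2) * (x ⬝ᵥ A.mulVec x) + b ⬝ᵥ x + c :=
  separable_quadratic a ha u hu hpos hAM hsep
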